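import Vale.Agent.P147.Vel
import Vale.Agent.P147.Exist

namespace Vale.Agent.Results.P147.Ballistic

open MeasureTheory Filter Topology Vale.Agent.P147

theorem result (d : ℕ) (hd : 3 ≤ d) (μ : Measure (Step d → ℝ)) [IsProbabilityMeasure μ]
    (hμ : ∀ᵐ p ∂μ, (∀ s, 0 < p s) ∧ ∑ s, p s = 1) :
    (∃ P, IsAnnealed μ P) ∧ ∀ P, IsAnnealed μ P →
      (∀ ℓ : Fin d → ℝ, P (LinEsc ℓ) = 0 ∨ P (LinEsc (-ℓ)) = 0) ∧
      ∀ v v' : Fin d → ℝ,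
        P {ξ | Tendsto (fun (n : ℕ) (i : Fin d) => (walk ξ n i : ℝ) / n) atTop (𝓝 v)} ≠ 0 →
        P {ξ | Tendsto (fun (n : ℕ) (i : Fin d) => (walk ξ n i : ℝ) / n) atTop (𝓝 v')} ≠ 0 →
        SameRay ℝ v v' := by
  refine ⟨ex_annealed (by omega) hμ, fun P hP => ⟨main2 hd hμ hP, fun v v' h h' => ?_⟩⟩
  by_contra hs
  obtain ⟨ℓ, h1, h2⟩ := ex_dir hs
  rcases main2 hd hμ hP ℓ with h0 | h0
  · exact h (measure_mono_null (vel_sub h1) h0)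
  · exact h' (measure_mono_null (vel_sub h2) h0)

end Vale.Agent.Results.P147.Ballistic
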